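import Vale.Agent.P219.CoDefs

/-!
# P219: a bounded open set with smooth boundary has a global defining function
-/

open scoped Manifold ContDiff Topology
open Set Filter

set_option linter.all false

noncomputable section

namespace Vale.Agent.P219.H381

open Vale.Agent.P219.Co

section Local

variable {V : Type} [NormedAddCommGroup V] [NormedSpace ℝ V] [FiniteDimensional ℝ V]

/-- a local defining function near every point -/
structure LD (Ω : Set V) (W : Set V) (f : V → ℝ) : Prop where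
  isOpen : IsOpen W
  smooth : ContDiffOn ℝ ∞ f W
  neg : ∀ y ∈ W, y ∈ Ω → f y < 0
  zero : ∀ y ∈ W, y ∈ frontier Ω → f y = 0
  pos : ∀ y ∈ W, y ∉ closure Ω → 0 < f y
  reg : ∀ y ∈ W, y ∈ frontier Ω → fderiv ℝ f y ≠ 0

theorem exists_neg_dir {L : V →L[ℝ] ℝ} (hL : L ≠ 0) : ∃ v, L v < 0 := by
  by_contra! h
  apply hL
  ext v
  have h1 := h v
  have h2 := h (-v)
  rw [map_neg] at h2
  have h3 : L v = 0 := le_antisymm (by linarith) h1
  rw [h3]; rfl

/-- near a regular zero, negative values occur -/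
theorem eventually_neg {f : V → ℝ} {y v : V} (hd : DifferentiableAt ℝ f y) (h0 : f y = 0)
    (hv : fderiv ℝ f y v < 0) : ∀ᶠ t in 𝓝[>] (0 : ℝ), f (y + t • v) < 0 := by
  have h1 : HasDerivAt (fun t : ℝ => y + t • v) v 0 := by
    have := ((hasDerivAt_id (0 : ℝ)).smul_const v).const_add y
    simpa using this
  have h2 : HasDerivAt (fun t : ℝ => f (y + t • v)) (fderiv ℝ f y v) 0 := by
    have h3 : HasFDerivAt f (fderiv ℝ f y) (y + (0 : ℝ) • v) := by simpa using hd.hasFDerivAt
    exact h3.comp_hasDerivAt 0 h1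
  have h4 := hasDerivAt_iff_tendsto_slope.1 h2
  have h5 : Tendsto (slope (fun t : ℝ => f (y + t • v)) 0) (𝓝[>] 0) (𝓝 (fderiv ℝ f y v)) :=
    h4.mono_left (nhdsWithin_mono _ (fun t ht => ne_of_gt ht))
  filter_upwards [h5.eventually (gt_mem_nhds hv), self_mem_nhdsWithin] with t ht ht0
  rw [slope_def_field] at ht
  simp only [zero_smul, add_zero, h0, sub_zero] at ht
  have : 0 < t := ht0
  by_contra! h6
  exact absurd (div_nonneg h6 this.le) (not_le.2 ht)

theorem ld_of_boundary {Ω : Set V} (hΩ : IsOpen Ω) {p : V} {U : Set V} {f : V → ℝ} (hU : IsOpen U)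
    (hp : p ∈ U) (hf : ContDiffOn ℝ ∞ f U) (hd : fderiv ℝ f p ≠ 0)
    (hs : Ω ∩ U = {x ∈ U | f x < 0}) : ∃ W, p ∈ W ∧ LD Ω W f := by
  have hcd : ∀ y ∈ U, ContDiffAt ℝ ∞ f y := fun y hy => hf.contDiffAt (hU.mem_nhds hy)
  have hc : ContinuousOn (fderiv ℝ f) U := fun y hy =>
    ((hcd y hy).fderiv_right (m := ∞) (by simp)).continuousAt.continuousWithinAt
  have hmem : ∀ y ∈ U, (y ∈ Ω ↔ f y < 0) := by
    intro y hy
    constructor
    · intro h
      have : y ∈ Ω ∩ U := ⟨h, hy⟩
      rw [hs] at this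
      exact this.2
    · intro h
      have : y ∈ {x ∈ U | f x < 0} := ⟨hy, h⟩
      rw [← hs] at this
      exact this.1
  have hz : ∀ y ∈ U, fderiv ℝ f y ≠ 0 → f y = 0 → y ∈ closure Ω := by
    intro y hy hdy hy0
    obtain ⟨v, hv⟩ := exists_neg_dir hdy
    have h1 := eventually_neg ((hcd y hy).differentiableAt (by simp)) hy0 hv
    have h2 : Tendsto (fun t : ℝ => y + t • v) (𝓝[>] 0) (𝓝 y) := by
      have : Continuous fun t : ℝ => y + t • v := by fun_prop
      have h := this.tendsto 0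
      simp only [zero_smul, add_zero] at h
      exact h.mono_left nhdsWithin_le_nhds
    refine mem_closure_of_tendsto h2 ?_
    filter_upwards [h1, h2.eventually (hU.mem_nhds hy)] with t ht htU
    exact (hmem _ htU).2 ht
  refine ⟨U ∩ {y | fderiv ℝ f y ≠ 0}, ⟨hp, hd⟩, ?_⟩
  refine ⟨?_, hf.mono inter_subset_left, ?_, ?_, ?_, ?_⟩
  · have := hc.isOpen_inter_preimage hU (isOpen_ne (x := (0 : V →L[ℝ] ℝ)))
    exact this
  · intro y hy h
    exact (hmem y hy.1).1 h
  · intro y hy h
    rw [hΩ.frontier_eq] at h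
    have h1 : 0 ≤ f y := by
      by_contra! h2
      exact h.2 ((hmem y hy.1).2 h2)
    refine le_antisymm ?_ h1
    by_contra! h2
    have h3 : ∀ᶠ z in 𝓝 y, z ∈ U ∧ 0 < f z := by
      filter_upwards [hU.mem_nhds hy.1, ((hcd y hy.1).continuousAt).eventually (lt_mem_nhds h2)]
        with z hz1 hz2 using ⟨hz1, hz2⟩
    obtain ⟨z, hz1, hz2⟩ := mem_closure_iff_nhds.1 h.1 _ h3
    exact absurd ((hmem z hz1.1).1 hz2) (not_lt.2 hz1.2.le)
  · intro y hy h
    have h1 : 0 ≤ f y := by
      by_contra! h2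
      exact h (subset_closure ((hmem y hy.1).2 h2))
    rcases h1.eq_or_lt with h2 | h2
    · exact absurd (hz y hy.1 hy.2 h2.symm) h
    · exact h2
  · intro y hy _
    exact hy.2

theorem exists_defining {Ω : Set V} (hΩ : IsOpen Ω)
    (hb : ∀ p ∈ frontier Ω, ∃ (U : Set V) (f : V → ℝ), IsOpen U ∧ p ∈ U ∧ ContDiffOn ℝ ∞ f U ∧
      fderiv ℝ f p ≠ 0 ∧ Ω ∩ U = {x ∈ U | f x < 0}) :
    ∃ ρ : V → ℝ, ContDiff ℝ ∞ ρ ∧ {x | ρ x < 0} = Ω ∧ ∀ x, ρ x = 0 → fderiv ℝ ρ x ≠ 0 := by
  have hloc : ∀ p : V, ∃ (W : Set V) (f : V → ℝ), p ∈ W ∧ LD Ω W f := by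
    intro p
    by_cases h1 : p ∈ Ω
    · refine ⟨Ω, fun _ => -1, h1, hΩ, contDiffOn_const, ?_, ?_, ?_, ?_⟩
      · intro y _ _; norm_num
      · intro y hy h; rw [hΩ.frontier_eq] at h; exact absurd hy h.2
      · intro y hy h; exact absurd (subset_closure hy) h
      · intro y hy h; rw [hΩ.frontier_eq] at h; exact absurd hy h.2
    by_cases h2 : p ∈ closure Ω
    · have h3 : p ∈ frontier Ω := by rw [hΩ.frontier_eq]; exact ⟨h2, h1⟩
      obtain ⟨U, f, k1, k2, k3, k4, k5⟩ := hb p h3
      obtain ⟨W, hW, hl⟩ := ld_of_boundary hΩ k1 k2 k3 k4 k5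
      exact ⟨W, f, hW, hl⟩
    · refine ⟨(closure Ω)ᶜ, fun _ => 1, h2, isClosed_closure.isOpen_compl, contDiffOn_const,
        ?_, ?_, ?_, ?_⟩
      · intro y hy h; exact absurd (subset_closure h) hy
      · intro y hy h; rw [hΩ.frontier_eq] at h; exact absurd h.1 hy
      · intro y _ _; norm_num
      · intro y hy h; rw [hΩ.frontier_eq] at h; exact absurd h.1 hy
  choose W f hW hl using hloc
  obtain ⟨χ, hχ⟩ := SmoothPartitionOfUnity.exists_isSubordinate 𝓘(ℝ, V) isClosed_univ W
    (fun i => (hl i).isOpen) (fun x _ => mem_iUnion.2 ⟨x, hW x⟩)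
  set ρ : V → ℝ := fun x => ∑ᶠ i, χ i x • f i x with hρ
  have hmemW : ∀ i x, χ i x ≠ 0 → x ∈ W i := fun i x hx => hχ i (subset_tsupport _ hx)
  have hsm : ContDiff ℝ ∞ ρ := by
    rw [← contMDiff_iff_contDiff]
    apply SmoothPartitionOfUnity.contMDiff_finsum_smul
    intro i x hx
    exact ((hl i).smooth.contDiffAt ((hl i).isOpen.mem_nhds (hχ i hx))).contMDiffAt
  have hneg : ∀ y ∈ Ω, ρ y < 0 := fun y hy =>
    show ρ y ∈ Iio (0 : ℝ) from χ.finsum_smul_mem_convex (g := f) (t := Iio (0 : ℝ)) (mem_univ y)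
      (fun i hi => (hl i).neg y (hmemW i y hi) hy) (convex_Iio 0)
  have hzero : ∀ y ∈ frontier Ω, ρ y = 0 := fun y hy =>
    show ρ y ∈ ({0} : Set ℝ) from χ.finsum_smul_mem_convex (g := f) (t := ({0} : Set ℝ))
      (mem_univ y) (fun i hi => (hl i).zero y (hmemW i y hi) hy) (convex_singleton 0)
  have hpos : ∀ y, y ∉ closure Ω → 0 < ρ y := fun y hy =>
    show ρ y ∈ Ioi (0 : ℝ) from χ.finsum_smul_mem_convex (g := f) (t := Ioi (0 : ℝ)) (mem_univ y)
      (fun i hi => (hl i).pos y (hmemW i y hi) hy) (convex_Ioi 0)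
  refine ⟨ρ, hsm, ?_, ?_⟩
  · ext y
    constructor
    · intro (hy : ρ y < 0)
      by_contra h1
      by_cases h2 : y ∈ closure Ω
      · rw [hzero y (by rw [hΩ.frontier_eq]; exact ⟨h2, h1⟩)] at hy
        exact lt_irrefl _ hy
      · exact absurd (hpos y h2) (not_lt.2 hy.le)
    · exact hneg y
  · intro y hy0 hdz
    have hyf : y ∈ frontier Ω := by
      rw [hΩ.frontier_eq]
      refine ⟨?_, fun h => (hneg y h).ne hy0⟩
      by_contra h; exact (hpos y h).ne' hy0
    obtain ⟨i, hi⟩ := χ.exists_pos_of_mem (mem_univ y)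
    have hyW := hmemW i y hi.ne'
    have hfi : DifferentiableAt ℝ (f i) y :=
      ((hl i).smooth.contDiffAt ((hl i).isOpen.mem_nhds hyW)).differentiableAt (by simp)
    obtain ⟨v, hv⟩ := exists_neg_dir ((hl i).reg y hyW hyf)
    have h0 := (hl i).zero y hyW hyf
    have h1 := eventually_neg hfi h0 hv
    have h2 : Tendsto (fun t : ℝ => y + t • v) (𝓝[>] 0) (𝓝 y) := by
      have : Continuous fun t : ℝ => y + t • v := by fun_prop
      have h := this.tendsto 0
      simp only [zero_smul, add_zero] at h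
      exact h.mono_left nhdsWithin_le_nhds
    have h3 : ∀ᶠ t in 𝓝[>] (0 : ℝ), ρ (y + t • v) ≤ χ i (y + t • v) * f i (y + t • v) := by
      filter_upwards [h1, h2.eventually ((hl i).isOpen.mem_nhds hyW)] with t ht htW
      have hΩt : y + t • v ∈ Ω := by
        by_contra k1
        by_cases k2 : y + t • v ∈ closure Ω
        · rw [(hl i).zero _ htW (by rw [hΩ.frontier_eq]; exact ⟨k2, k1⟩)] at ht
          exact lt_irrefl _ ht
        · exact absurd ((hl i).pos _ htW k2) (not_lt.2 ht.le)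
      have k3 : -(χ i (y + t • v) • f i (y + t • v)) ≤
          ∑ᶠ j, -(χ j (y + t • v) • f j (y + t • v)) := by
        refine single_le_finsum (f := fun j => -(χ j (y + t • v) • f j (y + t • v))) i ?_ ?_
        · refine (χ.locallyFinite.point_finite (y + t • v)).subset ?_
          intro j hj
          simp only [Function.mem_support, smul_eq_mul, ne_eq, neg_eq_zero, mul_eq_zero,
            not_or] at hj
          exact hj.1
        · intro j
          rcases (χ.nonneg j (y + t • v)).eq_or_lt with k4 | k4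
          · simp [← k4]
          · have k5 := (hl j).neg _ (hmemW j _ k4.ne') hΩt
            simp only [smul_eq_mul, Left.nonneg_neg_iff]
            exact (mul_neg_of_pos_of_neg k4 k5).le
      rw [finsum_neg_distrib] at k3
      simp only [smul_eq_mul] at k3
      have k6 : ρ (y + t • v) = ∑ᶠ j, χ j (y + t • v) * f j (y + t • v) := rfl
      rw [k6]
      linarith
    -- derivatives
    have hline : HasDerivAt (fun t : ℝ => y + t • v) v 0 := by
      have := ((hasDerivAt_id (0 : ℝ)).smul_const v).const_add y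
      simpa using this
    have hρd : HasDerivAt (fun t : ℝ => ρ (y + t • v)) 0 0 := by
      have k : HasFDerivAt ρ (0 : V →L[ℝ] ℝ) (y + (0 : ℝ) • v) := by
        have := ((hsm.differentiable (by simp)) y).hasFDerivAt
        rw [hdz] at this
        simpa using this
      exact k.comp_hasDerivAt 0 hline
    have hψd : HasDerivAt (fun t : ℝ => χ i (y + t • v) * f i (y + t • v))
        (χ i y * fderiv ℝ (f i) y v) 0 := by
      have k1 : HasFDerivAt (f i) (fderiv ℝ (f i) y) (y + (0 : ℝ) • v) := by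
        simpa using hfi.hasFDerivAt
      have k2 := k1.comp_hasDerivAt 0 hline
      have hχd : Differentiable ℝ (χ i) := by
        have := (χ i).contMDiff
        rw [contMDiff_iff_contDiff] at this
        exact this.differentiable (by simp)
      have k3 : HasFDerivAt (χ i) (fderiv ℝ (χ i) y) (y + (0 : ℝ) • v) := by
        simpa using (hχd y).hasFDerivAt
      have k4 := k3.comp_hasDerivAt 0 hline
      have k5 := k4.mul k2
      simp only [Function.comp, zero_smul, add_zero, h0, mul_zero, zero_add] at k5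
      exact k5
    have h4 := (hψd.sub hρd)
    rw [sub_zero] at h4
    have h5 := hasDerivAt_iff_tendsto_slope.1 h4
    have h6 : Tendsto (slope ((fun t : ℝ => χ i (y + t • v) * f i (y + t • v)) -
        fun t : ℝ => ρ (y + t • v)) 0) (𝓝[>] 0) (𝓝 (χ i y * fderiv ℝ (f i) y v)) :=
      h5.mono_left (nhdsWithin_mono _ (fun t ht => ne_of_gt ht))
    have h7 : 0 ≤ χ i y * fderiv ℝ (f i) y v := by
      refine ge_of_tendsto h6 ?_
      filter_upwards [h3, self_mem_nhdsWithin] with t ht ht0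
      have ht0' : 0 < t := ht0
      rw [slope_def_field]
      simp only [Pi.sub_apply, zero_smul, add_zero, h0, mul_zero, hy0, sub_zero]
      exact div_nonneg (by linarith) ht0'.le
    exact absurd (mul_neg_of_pos_of_neg hi hv) (not_lt.2 h7)

end Local

/-- bounded open sets with smooth boundary have global defining functions -/
theorem exists_smoothDomain {n : ℕ} {Ω : Set (E n)} (hΩ : IsOpen Ω) (hbd : Bornology.IsBounded Ω)
    (hb : ∀ p ∈ frontier Ω, ∃ (U : Set (E n)) (f : E n → ℝ), IsOpen U ∧ p ∈ U ∧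
      ContDiffOn ℝ ∞ f U ∧ fderiv ℝ f p ≠ 0 ∧ Ω ∩ U = {x ∈ U | f x < 0}) :
    ∃ D : SmoothDomain n, D.carrier = Ω := by
  obtain ⟨ρ, h1, h2, h3⟩ := exists_defining hΩ hb
  refine ⟨{ ρ := ρ, smooth := h1, bdd := ?_, regular := ?_ }, h2⟩
  · obtain ⟨R, hR⟩ := hbd.exists_norm_le
    refine ⟨R, fun x hx i => ?_⟩
    have hx' : x ∈ Ω := by rw [← h2]; exact hx
    have h4 := PiLp.norm_apply_le x i
    rw [Real.norm_eq_abs] at h4
    exact h4.trans (hR x hx')
  · intro x hx
    by_contra! h4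
    apply h3 x hx
    have hd : DifferentiableAt ℝ ρ x := (h1.differentiable (by simp)) x
    ext v
    have e : v = ∑ i, v i • (EuclideanSpace.single i 1 : E n) := by
      have := (EuclideanSpace.basisFun (Fin n) ℝ).sum_repr v
      simpa using this.symm
    rw [e, map_sum]
    simp only [map_smul, ContinuousLinearMap.zero_apply]
    refine Finset.sum_eq_zero fun i _ => ?_
    have h5 := h4 i
    unfold pd at h5
    rw [hd.lineDeriv_eq_fderiv] at h5
    rw [h5, smul_zero]

end Vale.Agent.P219.H381
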