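import Mathlib

/-!
# P219: comparison of two measures by means of local inequalities for test functions
-/

open MeasureTheory Set Filter Topology
open scoped ENNReal NNReal

set_option linter.all false

namespace Vale.Agent.P219.H381

variable {X : Type*} [MetricSpace X] [ProperSpace X] [MeasurableSpace X] [BorelSpace X]

theorem open_le {m₁ m₂ : Measure X} {C : ℝ≥0∞} {N O : Set X}
    (h : ∀ φ : X → ℝ, Continuous φ → (∀ x, 0 ≤ φ x) → HasCompactSupport φ → tsupport φ ⊆ N →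
      ∫⁻ x, ENNReal.ofReal (φ x) ∂m₁ ≤ C * ∫⁻ x, ENNReal.ofReal (φ x) ∂m₂)
    (hO : IsOpen O) (hON : O ⊆ N) : m₁ O ≤ C * m₂ O := by
  rcases isEmpty_or_nonempty X with hX | ⟨⟨x₀⟩⟩
  · rw [Set.eq_empty_of_isEmpty O]; simp
  obtain ⟨F, hF1, hF2, hF3, hF4⟩ := hO.exists_iUnion_isClosed
  set K : ℕ → Set X := fun j => F j ∩ Metric.closedBall x₀ j with hK
  have hKc : ∀ j, IsCompact (K j) := fun j =>
    (isCompact_closedBall x₀ (j : ℝ)).inter_left (hF1 j)
  have hKm : Monotone K := by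
    intro i j hij
    refine inter_subset_inter (hF4 hij) (Metric.closedBall_subset_closedBall ?_)
    exact_mod_cast hij
  have hKO : ∀ j, K j ⊆ O := fun j => inter_subset_left.trans (hF2 j)
  have hKU : ⋃ j, K j = O := by
    apply subset_antisymm (iUnion_subset hKO)
    intro x hx
    rw [← hF3] at hx
    obtain ⟨i, hi⟩ := mem_iUnion.1 hx
    obtain ⟨j, hj⟩ := exists_nat_ge (dist x x₀)
    refine mem_iUnion.2 ⟨max i j, hF4 (le_max_left i j) hi, ?_⟩
    rw [Metric.mem_closedBall]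
    exact hj.trans (by exact_mod_cast le_max_right i j)
  have h1 : m₁ O = ⨆ j, m₁ (K j) := by
    rw [← hKU]
    exact hKm.directed_le.measure_iUnion
  rw [h1]
  refine iSup_le fun j => ?_
  obtain ⟨f, hf1, hf2, hf3, hf4⟩ :=
    exists_continuousMap_one_of_isCompact_subset_isOpen (hKc j) hO (hKO j)
  have h2 : m₁ (K j) ≤ ∫⁻ x, ENNReal.ofReal (f x) ∂m₁ := by
    rw [← lintegral_indicator_one (hKc j).measurableSet]
    refine lintegral_mono fun x => ?_
    by_cases hx : x ∈ K j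
    · rw [indicator_of_mem hx]
      have := hf1 hx
      simp only [Pi.one_apply] at this ⊢
      rw [this]; simp
    · rw [indicator_of_notMem hx]; exact bot_le
  have h3 : ∫⁻ x, ENNReal.ofReal (f x) ∂m₂ ≤ m₂ O := by
    rw [← lintegral_indicator_one hO.measurableSet]
    refine lintegral_mono fun x => ?_
    by_cases hx : x ∈ O
    · rw [indicator_of_mem hx]
      simp only [Pi.one_apply]
      rw [ENNReal.ofReal_le_one]
      exact (hf4 x).2
    · have : f x = 0 := by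
        by_contra hne
        exact hx (hf3 (subset_tsupport _ hne))
      rw [this]; simp
  calc m₁ (K j) ≤ ∫⁻ x, ENNReal.ofReal (f x) ∂m₁ := h2
    _ ≤ C * ∫⁻ x, ENNReal.ofReal (f x) ∂m₂ :=
      h f f.continuous (fun x => (hf4 x).1) hf2 (hf3.trans hON)
    _ ≤ C * m₂ O := by gcongr

theorem borel_le {m₁ m₂ : Measure X} {C : ℝ≥0∞} {N A : Set X} (hC : C ≠ ⊤)
    (h : ∀ φ : X → ℝ, Continuous φ → (∀ x, 0 ≤ φ x) → HasCompactSupport φ → tsupport φ ⊆ N →
      ∫⁻ x, ENNReal.ofReal (φ x) ∂m₁ ≤ C * ∫⁻ x, ENNReal.ofReal (φ x) ∂m₂)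
    (hN : IsOpen N) (hfin : m₂ N ≠ ⊤) (hA : MeasurableSet A) (hAN : A ⊆ N) :
    m₁ A ≤ C * m₂ A := by
  have hfm : IsFiniteMeasure (m₂.restrict N) := ⟨by
    rw [Measure.restrict_apply_univ]; exact lt_top_iff_ne_top.2 hfin⟩
  have h1 : ∀ r : ℝ≥0∞, m₂ A < r → m₁ A ≤ C * r := by
    intro r hr
    have hr' : (m₂.restrict N) A < r := by
      rw [Measure.restrict_apply hA, inter_eq_left.2 hAN]; exact hr
    obtain ⟨O, hAO, hO, hOr⟩ := A.exists_isOpen_lt_of_lt r hr'
    have h2 := open_le h (hO.inter hN) inter_subset_right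
    rw [Measure.restrict_apply hO.measurableSet] at hOr
    calc m₁ A ≤ m₁ (O ∩ N) := measure_mono (subset_inter hAO hAN)
      _ ≤ C * m₂ (O ∩ N) := h2
      _ ≤ C * r := by gcongr
  have hAf : m₂ A ≠ ⊤ := ne_top_of_le_ne_top hfin (measure_mono hAN)
  have h2 : Tendsto (fun r => C * r) (𝓝[>] (m₂ A)) (𝓝 (C * m₂ A)) :=
    (ENNReal.Tendsto.const_mul tendsto_id (Or.inr hC)).mono_left nhdsWithin_le_nhds
  have hne : (𝓝[>] (m₂ A)).NeBot := nhdsGT_neBot_of_exists_gt ⟨⊤, lt_top_iff_ne_top.2 hAf⟩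
  exact ge_of_tendsto h2 (by filter_upwards [self_mem_nhdsWithin] with r hr using h1 r hr)

theorem meas_le {m₁ m₂ : Measure X} {C : ℝ≥0∞} (hC : C ≠ ⊤) {T : Set X}
    (h : ∀ q ∈ T, ∃ N, IsOpen N ∧ q ∈ N ∧ m₂ N ≠ ⊤ ∧
      ∀ φ : X → ℝ, Continuous φ → (∀ x, 0 ≤ φ x) → HasCompactSupport φ → tsupport φ ⊆ N →
      ∫⁻ x, ENNReal.ofReal (φ x) ∂m₁ ≤ C * ∫⁻ x, ENNReal.ofReal (φ x) ∂m₂)
    {A : Set X} (hA : MeasurableSet A) (hAT : A ⊆ T) : m₁ A ≤ C * m₂ A := by
  choose! N hN hq hfin hφ using h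
  obtain ⟨c, hcT, hcc, hcov⟩ := TopologicalSpace.countable_cover_nhdsWithin
    (s := T) (f := N) (fun q hqT => mem_nhdsWithin_of_mem_nhds ((hN q hqT).mem_nhds (hq q hqT)))
  rcases c.eq_empty_or_nonempty with hce | hcne
  · rw [hce] at hcov
    simp only [mem_empty_iff_false, iUnion_of_empty, iUnion_empty] at hcov
    have : A = ∅ := subset_empty_iff.1 (hAT.trans hcov)
    rw [this]; simp
  obtain ⟨e, he⟩ := hcc.exists_eq_range hcne
  set B : ℕ → Set X := disjointed fun j => A ∩ N (e j) with hB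
  have heT : ∀ j, e j ∈ T := fun j => hcT (by rw [he]; exact mem_range_self j)
  have hBm : ∀ j, MeasurableSet (B j) :=
    MeasurableSet.disjointed fun j => hA.inter (hN _ (heT j)).measurableSet
  have hBU : ⋃ j, B j = A := by
    rw [hB, iUnion_disjointed, ← inter_iUnion]
    refine inter_eq_left.2 fun x hx => ?_
    obtain ⟨q, hqc, hxq⟩ := mem_iUnion₂.1 (hcov (hAT hx))
    rw [he] at hqc
    obtain ⟨j, rfl⟩ := hqc
    exact mem_iUnion.2 ⟨j, hxq⟩
  have hBd : Pairwise (Function.onFun Disjoint B) := disjoint_disjointed _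
  have hsub : ∀ j, B j ⊆ N (e j) := fun j => (disjointed_subset _ j).trans inter_subset_right
  rw [← hBU, measure_iUnion hBd hBm, measure_iUnion hBd hBm, ← ENNReal.tsum_mul_left]
  exact ENNReal.tsum_le_tsum fun j =>
    borel_le hC (hφ _ (heT j)) (hN _ (heT j)) (hfin _ (heT j)) (hBm j) (hsub j)

end Vale.Agent.P219.H381
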