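import Vale.Agent.P219.H861.Area1
import Vale.Agent.P219.H381.MeasL

/-!
# P219: change of variables for the Euclidean measure of hypersurfaces, 1: local estimates
-/

open MeasureTheory Set Filter Topology Module
open scoped ENNReal NNReal ContDiff

set_option linter.all false

noncomputable section

namespace Vale.Agent.P219.H381

open Vale.Agent.P219.Coarea

variable {V : Type} [NormedAddCommGroup V] [InnerProductSpace ℝ V] [FiniteDimensional ℝ V]
  [MeasurableSpace V] [BorelSpace V]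

/-- a smooth change of coordinates between open sets -/
structure Chg (S T : Set V) (τ σ : V → V) : Prop where
  openS : IsOpen S
  openT : IsOpen T
  mapS : ∀ x ∈ S, τ x ∈ T
  mapT : ∀ u ∈ T, σ u ∈ S
  left : ∀ x ∈ S, σ (τ x) = x
  right : ∀ u ∈ T, τ (σ u) = u
  smS : ContDiffOn ℝ ∞ τ S
  smT : ContDiffOn ℝ ∞ σ T

omit [MeasurableSpace V] [BorelSpace V] in
theorem exists_ext {U : Set V} (hU : IsOpen U) {f : V → ℝ} (hf : ContDiffOn ℝ ∞ f U) {p : V}
    (hp : p ∈ U) : ∃ (F : V → ℝ) (W : Set V), ContDiff ℝ ∞ F ∧ IsOpen W ∧ p ∈ W ∧ W ⊆ U ∧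
      ∀ x ∈ W, F x = f x := by
  obtain ⟨r, hr, hrU⟩ := Metric.isOpen_iff.1 hU p hp
  let κ : ContDiffBump p := ⟨r / 3, r / 2, by positivity, by linarith⟩
  refine ⟨fun x => κ x * f x, Metric.ball p (r / 3), ?_, Metric.isOpen_ball,
    Metric.mem_ball_self (by positivity), ?_, ?_⟩
  · rw [contDiff_iff_contDiffAt]
    intro x
    by_cases hx : x ∈ U
    · exact κ.contDiff.contDiffAt.mul (hf.contDiffAt (hU.mem_nhds hx))
    · have hx2 : x ∉ tsupport κ := by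
        rw [κ.tsupport_eq]
        intro h
        apply hx
        apply hrU
        rw [Metric.mem_ball]
        rw [Metric.mem_closedBall] at h
        exact lt_of_le_of_lt h (by change r / 2 < r; linarith)
      have h0 : (fun x => κ x * f x) =ᶠ[𝓝 x] fun _ => 0 := by
        filter_upwards [notMem_tsupport_iff_eventuallyEq.1 hx2] with y hy
        rw [hy]; simp
      exact contDiffAt_const.congr_of_eventuallyEq h0
  · exact (Metric.ball_subset_ball (by linarith)).trans hrU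
  · intro x hx
    have : κ x = 1 := κ.one_of_mem_closedBall (Metric.ball_subset_closedBall hx)
    simp only [this, one_mul]

theorem measurableSet_zero {U : Set V} (hU : IsOpen U) {f : V → ℝ} (hf : ContinuousOn f U) :
    MeasurableSet (U ∩ {x | f x = 0}) := by
  have h1 : IsOpen (U ∩ f ⁻¹' {0}ᶜ) := hf.isOpen_inter_preimage hU isOpen_compl_singleton
  have h2 : U ∩ {x | f x = 0} = U \ (U ∩ f ⁻¹' {0}ᶜ) := by
    ext x
    simp only [mem_inter_iff, mem_ofPred_eq, Set.mem_sdiff, mem_preimage, mem_compl_iff,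
      mem_singleton_iff, not_and, not_not]
    tauto
  rw [h2]
  exact hU.measurableSet.diff h1.measurableSet

/-- the two local estimates agree for a local function and its extension -/
theorem ext_integrals {U W : Set V} (hU : IsOpen U) {f F : V → ℝ} (hf : ContDiffOn ℝ ∞ f U)
    (hF : ContDiff ℝ ∞ F) (hW : IsOpen W) (hWU : W ⊆ U) (hFf : ∀ x ∈ W, F x = f x) {φ : V → ℝ}
    (hφ : tsupport φ ⊆ W) :
    (∫⁻ x in U ∩ {x | f x = 0}, ENNReal.ofReal (φ x / ‖fderiv ℝ f x‖)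
      ∂(μHE[finrank ℝ V - 1] : Measure V)) =
    (∫⁻ x in {x | F x = 0}, ENNReal.ofReal (φ x / ‖fderiv ℝ F x‖)
      ∂(μHE[finrank ℝ V - 1] : Measure V)) ∧
    ∀ ε : ℝ, (∫⁻ x, ENNReal.ofReal (ε⁻¹ * chi' (-F x / ε) * φ x)) =
      ∫⁻ x, ENNReal.ofReal (ε⁻¹ * chi' (-f x / ε) * φ x) := by
  have h0 : ∀ x, x ∉ W → φ x = 0 := by
    intro x hx
    by_contra h
    exact hx (hφ (subset_tsupport _ h))
  constructor
  · rw [← lintegral_indicator (measurableSet_zero hU hf.continuousOn),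
      ← lintegral_indicator (isClosed_eq hF.continuous continuous_const).measurableSet]
    congr 1
    funext x
    by_cases hx : x ∈ W
    · have he : F =ᶠ[𝓝 x] f := by
        filter_upwards [hW.mem_nhds hx] with y hy using hFf y hy
      by_cases hz : f x = 0
      · rw [indicator_of_mem (show x ∈ U ∩ {x | f x = 0} from ⟨hWU hx, hz⟩),
          indicator_of_mem (show x ∈ {x | F x = 0} from (hFf x hx).trans hz), he.fderiv_eq]
      · rw [indicator_of_notMem (fun h => hz h.2), indicator_of_notMem (fun h => hz ?_)]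
        exact (hFf x hx).symm.trans h
    · have e1 : ∀ (A : Set V) (g : V → ℝ),
          A.indicator (fun x => ENNReal.ofReal (φ x / g x)) x = 0 := by
        intro A g
        classical
        rw [indicator_apply]
        split_ifs
        · rw [h0 x hx, zero_div, ENNReal.ofReal_zero]
        · rfl
      rw [e1, e1]
  · intro ε
    congr 1
    funext x
    by_cases hx : x ∈ W
    · rw [hFf x hx]
    · rw [h0 x hx, mul_zero, mul_zero]

theorem loc_lower {U : Set V} (hU : IsOpen U) {f : V → ℝ} (hf : ContDiffOn ℝ ∞ f U) {p : V}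
    (hpU : p ∈ U) (hp : f p = 0) (hdp : fderiv ℝ f p ≠ 0) (δ : ℝ) (hδ : 0 < δ) :
    ∃ W : Set V, IsOpen W ∧ p ∈ W ∧ W ⊆ U ∧ ∀ φ : V → ℝ, Continuous φ → (∀ x, 0 ≤ φ x) →
      HasCompactSupport φ → tsupport φ ⊆ W → ∀ η > 0, ∀ᶠ ε in 𝓝[>] (0 : ℝ),
      (∫⁻ x in U ∩ {x | f x = 0},
          ENNReal.ofReal (φ x / ‖fderiv ℝ f x‖) ∂(μHE[finrank ℝ V - 1] : Measure V)) ≤
        ENNReal.ofReal ((1 + δ) ^ finrank ℝ V) *
          (∫⁻ x, ENNReal.ofReal (ε⁻¹ * chi' (-f x / ε) * φ x)) + ENNReal.ofReal η := by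
  obtain ⟨F, W, hF, hW, hpW, hWU, hFf⟩ := exists_ext hU hf hpU
  have he : F =ᶠ[𝓝 p] f := by filter_upwards [hW.mem_nhds hpW] with y hy using hFf y hy
  obtain ⟨W', h1, h2, h3⟩ := local_lower F (hF.of_le (by exact_mod_cast le_top)) p
    ((hFf p hpW).trans hp) (by rw [he.fderiv_eq]; exact hdp) δ hδ
  refine ⟨W ∩ W', hW.inter h1, ⟨hpW, h2⟩, inter_subset_left.trans hWU, ?_⟩
  intro φ k1 k2 k3 k4 η hη
  have e := ext_integrals hU hf hF hW hWU hFf (k4.trans inter_subset_left)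
  filter_upwards [h3 φ k1 k2 k3 (k4.trans inter_subset_right) η hη] with ε hε
  rw [e.1, ← e.2 ε]
  exact hε

theorem loc_bound {U : Set V} (hU : IsOpen U) {f : V → ℝ} (hf : ContDiffOn ℝ ∞ f U) {p : V}
    (hpU : p ∈ U) (hp : f p = 0) (hdp : fderiv ℝ f p ≠ 0) (δ : ℝ) (hδ : 0 < δ) :
    ∃ W : Set V, IsOpen W ∧ p ∈ W ∧ W ⊆ U ∧ ∀ φ : V → ℝ, Continuous φ → (∀ x, 0 ≤ φ x) →
      HasCompactSupport φ → tsupport φ ⊆ W → ∀ η > 0, ∀ᶠ ε in 𝓝[>] (0 : ℝ),
      ∫⁻ x, ENNReal.ofReal (ε⁻¹ * chi' (-f x / ε) * φ x) ≤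
        ENNReal.ofReal (1 + δ) * (∫⁻ x in U ∩ {x | f x = 0},
          ENNReal.ofReal (φ x / ‖fderiv ℝ f x‖) ∂(μHE[finrank ℝ V - 1] : Measure V)) +
        ENNReal.ofReal η := by
  obtain ⟨F, W, hF, hW, hpW, hWU, hFf⟩ := exists_ext hU hf hpU
  have he : F =ᶠ[𝓝 p] f := by filter_upwards [hW.mem_nhds hpW] with y hy using hFf y hy
  obtain ⟨W', h1, h2, h3⟩ := local_bound F (hF.of_le (by exact_mod_cast le_top)) p
    ((hFf p hpW).trans hp) (by rw [he.fderiv_eq]; exact hdp) δ hδ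
  refine ⟨W ∩ W', hW.inter h1, ⟨hpW, h2⟩, inter_subset_left.trans hWU, ?_⟩
  intro φ k1 k2 k3 k4 η hη
  have e := ext_integrals hU hf hF hW hWU hFf (k4.trans inter_subset_left)
  filter_upwards [h3 φ k1 k2 k3 (k4.trans inter_subset_right) η hη] with ε hε
  rw [e.1, ← e.2 ε]
  exact hε

/-- a test function in the other coordinates -/
theorem exists_pullfun {S T : Set V} {τ σ : V → V} (c : Chg S T τ σ) {φ : V → ℝ}
    (hφ : Continuous φ) (h0 : ∀ x, 0 ≤ φ x) (hcs : HasCompactSupport φ) {W : Set V}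
    (hφT : tsupport φ ⊆ T) (hφW : ∀ u ∈ tsupport φ, σ u ∈ W) :
    ∃ ψ : V → ℝ, Continuous ψ ∧ (∀ x, 0 ≤ ψ x) ∧ HasCompactSupport ψ ∧ tsupport ψ ⊆ W ∧
      (∀ x ∈ S, ψ x = φ (τ x) * |(fderiv ℝ τ x).det|) ∧ ∀ x, x ∉ S → ψ x = 0 := by
  classical
  set K : Set V := σ '' tsupport φ with hK
  have hKc : IsCompact K := hcs.isCompact.image_of_continuousOn (c.smT.continuousOn.mono hφT)
  have hKS : K ⊆ S := by
    rintro _ ⟨u, hu, rfl⟩; exact c.mapT u (hφT hu)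
  have hKW : K ⊆ W := by
    rintro _ ⟨u, hu, rfl⟩; exact hφW u hu
  set ψ : V → ℝ := fun x => if x ∈ S then φ (τ x) * |(fderiv ℝ τ x).det| else 0 with hψ
  have hS : ∀ x ∈ S, ψ x = φ (τ x) * |(fderiv ℝ τ x).det| := fun x hx => by
    rw [hψ]; exact if_pos hx
  have hS' : ∀ x, x ∉ S → ψ x = 0 := fun x hx => by rw [hψ]; exact if_neg hx
  have hoff : ∀ x, x ∉ K → ψ x = 0 := by
    intro x hx
    by_cases hxS : x ∈ S
    · rw [hS x hxS]
      have : φ (τ x) = 0 := by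
        by_contra hne
        exact hx ⟨τ x, subset_tsupport _ hne, c.left x hxS⟩
      rw [this, zero_mul]
    · exact hS' x hxS
  have hcont : Continuous ψ := by
    rw [continuous_iff_continuousAt]
    intro x
    by_cases hx : x ∈ S
    · have hτ : ContDiffAt ℝ ∞ τ x := c.smS.contDiffAt (c.openS.mem_nhds hx)
      have h1 : ContinuousAt (fun y => φ (τ y) * |(fderiv ℝ τ y).det|) x := by
        have h2 : ContinuousAt (fderiv ℝ τ) x :=
          (hτ.fderiv_right (m := ∞) (by simp)).continuousAt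
        have h3 : ContinuousAt (fun y => (fderiv ℝ τ y).det) x :=
          ContinuousLinearMap.continuous_det.continuousAt.comp h2
        exact (hφ.continuousAt.comp hτ.continuousAt).mul h3.abs
      refine h1.congr ?_
      filter_upwards [c.openS.mem_nhds hx] with y hy using (hS y hy).symm
    · have hxK : x ∉ K := fun h => hx (hKS h)
      have : ψ =ᶠ[𝓝 x] fun _ => 0 := by
        filter_upwards [hKc.isClosed.isOpen_compl.mem_nhds hxK] with y hy using hoff y hy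
      exact continuousAt_const.congr this.symm
  have hts : tsupport ψ ⊆ K := by
    apply closure_minimal _ hKc.isClosed
    intro x hx
    by_contra h
    exact hx (hoff x h)
  refine ⟨ψ, hcont, ?_, hKc.of_isClosed_subset (isClosed_tsupport _) hts, hts.trans hKW, hS, hS'⟩
  intro x
  by_cases hx : x ∈ S
  · rw [hS x hx]; exact mul_nonneg (h0 _) (abs_nonneg _)
  · rw [hS' x hx]

theorem chg_image {S T : Set V} {τ σ : V → V} (c : Chg S T τ σ) : τ '' S = T := by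
  apply subset_antisymm
  · rintro _ ⟨x, hx, rfl⟩; exact c.mapS x hx
  · intro u hu; exact ⟨σ u, c.mapT u hu, c.right u hu⟩

theorem chg_injOn {S T : Set V} {τ σ : V → V} (c : Chg S T τ σ) : InjOn τ S := by
  intro x hx y hy hxy
  rw [← c.left x hx, ← c.left y hy, hxy]

/-- change of variables in the volume integrals -/
theorem chg_volume {S T : Set V} {τ σ : V → V} (c : Chg S T τ σ) {A : Set V}
    (hA : MeasurableSet A) (hAS : A ⊆ S) (F : V → ℝ≥0∞) :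
    ∫⁻ u in τ '' A, F u = ∫⁻ x in A, ENNReal.ofReal |(fderiv ℝ τ x).det| * F (τ x) := by
  refine lintegral_image_eq_lintegral_abs_det_fderiv_mul volume hA (fun x hx => ?_)
    ((chg_injOn c).mono hAS) F
  exact ((c.smS.contDiffAt (c.openS.mem_nhds (hAS hx))).differentiableAt
    (by simp)).hasFDerivAt.hasFDerivWithinAt

theorem chg_integral {S T : Set V} {τ σ : V → V} (c : Chg S T τ σ) {ρ₁ ρ₂ φ ψ : V → ℝ}
    (hρ : ∀ x ∈ S, ρ₂ (τ x) = ρ₁ x) (hφT : tsupport φ ⊆ T)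
    (hψ1 : ∀ x ∈ S, ψ x = φ (τ x) * |(fderiv ℝ τ x).det|) (hψ2 : ∀ x, x ∉ S → ψ x = 0) (ε : ℝ) :
    ∫⁻ x, ENNReal.ofReal (ε⁻¹ * chi' (-ρ₁ x / ε) * ψ x) =
      ∫⁻ u, ENNReal.ofReal (ε⁻¹ * chi' (-ρ₂ u / ε) * φ u) := by
  have h1 : ∫⁻ x, ENNReal.ofReal (ε⁻¹ * chi' (-ρ₁ x / ε) * ψ x) =
      ∫⁻ x in S, ENNReal.ofReal (ε⁻¹ * chi' (-ρ₁ x / ε) * ψ x) := by
    rw [← lintegral_indicator c.openS.measurableSet]
    congr 1
    funext x
    by_cases hx : x ∈ S
    · rw [indicator_of_mem hx]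
    · rw [indicator_of_notMem hx, hψ2 x hx, mul_zero, ENNReal.ofReal_zero]
  have h2 : ∫⁻ u, ENNReal.ofReal (ε⁻¹ * chi' (-ρ₂ u / ε) * φ u) =
      ∫⁻ u in T, ENNReal.ofReal (ε⁻¹ * chi' (-ρ₂ u / ε) * φ u) := by
    rw [← lintegral_indicator c.openT.measurableSet]
    congr 1
    funext x
    by_cases hx : x ∈ T
    · rw [indicator_of_mem hx]
    · have : φ x = 0 := by
        by_contra h
        exact hx (hφT (subset_tsupport _ h))
      rw [indicator_of_notMem hx, this, mul_zero, ENNReal.ofReal_zero]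
  rw [h1, h2]
  conv_rhs => rw [← chg_image c]
  rw [chg_volume c c.openS.measurableSet subset_rfl]
  refine setLIntegral_congr_fun c.openS.measurableSet fun x hx => ?_
  rw [← ENNReal.ofReal_mul (abs_nonneg _), hψ1 x hx, hρ x hx]
  congr 1
  ring

theorem chg_symm {S T : Set V} {τ σ : V → V} (c : Chg S T τ σ) : Chg T S σ τ where
  openS := c.openT
  openT := c.openS
  mapS := c.mapT
  mapT := c.mapS
  left := c.right
  right := c.left
  smS := c.smT
  smT := c.smS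

/-- the integral of a test function over a hypersurface, with the weight `1 / |df|` -/
def hInt (U : Set V) (f φ : V → ℝ) : ℝ≥0∞ :=
  ∫⁻ x in U ∩ {x | f x = 0}, ENNReal.ofReal (φ x / ‖fderiv ℝ f x‖)
    ∂(μHE[finrank ℝ V - 1] : Measure V)

theorem chi'_bdd : ∃ C : ℝ, ∀ t, chi' t ≤ C := by
  obtain ⟨C, hC⟩ := isCompact_Icc.exists_bound_of_continuousOn (s := Icc (0 : ℝ) 1)
    continuous_chi'.continuousOn
  refine ⟨max C 0, fun t => ?_⟩
  by_cases ht : t ∈ Icc (0 : ℝ) 1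
  · exact ((le_abs_self _).trans (hC t ht)).trans (le_max_left _ _)
  · rw [mem_Icc, not_and_or, not_le, not_le] at ht
    rcases ht with ht | ht
    · rw [chi'_eq_zero_of_lt ht]; exact le_max_right _ _
    · rw [chi'_eq_zero_of_gt ht]; exact le_max_right _ _

theorem vol_finite {f φ : V → ℝ} (hφ : Continuous φ) (h0 : ∀ x, 0 ≤ φ x)
    (hcs : HasCompactSupport φ) {ε : ℝ} (hε : 0 < ε) :
    ∫⁻ x, ENNReal.ofReal (ε⁻¹ * chi' (-f x / ε) * φ x) ≠ ⊤ := by
  obtain ⟨C, hC⟩ := chi'_bdd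
  have h1 : ∫⁻ x, ENNReal.ofReal (ε⁻¹ * chi' (-f x / ε) * φ x) ≤
      ∫⁻ x, ENNReal.ofReal (ε⁻¹ * C * φ x) := by
    refine lintegral_mono fun x => ENNReal.ofReal_le_ofReal ?_
    refine mul_le_mul_of_nonneg_right ?_ (h0 x)
    exact mul_le_mul_of_nonneg_left (hC _) (inv_nonneg.2 hε.le)
  refine ne_top_of_le_ne_top ?_ h1
  have h2 : Integrable (fun x => ε⁻¹ * C * φ x) := (hφ.integrable_of_hasCompactSupport hcs).const_mul _
  exact h2.lintegral_lt_top.ne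

/-- the local comparison -/
theorem chg_local {S T : Set V} {τ σ : V → V} (c : Chg S T τ σ) {ρ₁ ρ₂ : V → ℝ}
    (h₁ : ContDiffOn ℝ ∞ ρ₁ S) (h₂ : ContDiffOn ℝ ∞ ρ₂ T) (hρ : ∀ x ∈ S, ρ₂ (τ x) = ρ₁ x)
    {q : V} (hq : q ∈ T) (hq0 : ρ₂ q = 0) (hd₂ : fderiv ℝ ρ₂ q ≠ 0)
    (hd₁ : fderiv ℝ ρ₁ (σ q) ≠ 0) (δ : ℝ) (hδ : 0 < δ) :
    ∃ N : Set V, IsOpen N ∧ q ∈ N ∧ N ⊆ T ∧ ∀ φ : V → ℝ, Continuous φ → (∀ x, 0 ≤ φ x) →
      HasCompactSupport φ → tsupport φ ⊆ N →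
      hInt T ρ₂ φ ≠ ⊤ ∧
      hInt S ρ₁ (fun x => φ (τ x) * |(fderiv ℝ τ x).det|) ≤
        ENNReal.ofReal ((1 + δ) ^ (finrank ℝ V + 1)) * hInt T ρ₂ φ ∧
      hInt T ρ₂ φ ≤ ENNReal.ofReal ((1 + δ) ^ (finrank ℝ V + 1)) *
        hInt S ρ₁ (fun x => φ (τ x) * |(fderiv ℝ τ x).det|) := by
  have hp : σ q ∈ S := c.mapT q hq
  have hp0 : ρ₁ (σ q) = 0 := by rw [← hρ _ hp, c.right q hq, hq0]
  obtain ⟨W₁, a1, a2, a3, a4⟩ := loc_lower c.openS h₁ hp hp0 hd₁ δ hδ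
  obtain ⟨W₂, b1, b2, b3, b4⟩ := loc_bound c.openS h₁ hp hp0 hd₁ δ hδ
  obtain ⟨W₃, c1, c2, c3, c4⟩ := loc_lower c.openT h₂ hq hq0 hd₂ δ hδ
  obtain ⟨W₄, d1, d2, d3, d4⟩ := loc_bound c.openT h₂ hq hq0 hd₂ δ hδ
  have hopen : IsOpen (T ∩ σ ⁻¹' (W₁ ∩ W₂)) :=
    c.smT.continuousOn.isOpen_inter_preimage c.openT (a1.inter b1)
  refine ⟨(T ∩ σ ⁻¹' (W₁ ∩ W₂)) ∩ (W₃ ∩ W₄), hopen.inter (c1.inter d1),
    ⟨⟨hq, a2, b2⟩, c2, d2⟩, fun x hx => hx.1.1, ?_⟩
  intro φ k1 k2 k3 k4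
  have hφT : tsupport φ ⊆ T := fun x hx => (k4 hx).1.1
  obtain ⟨ψ, p1, p2, p3, p4, p5, p6⟩ := exists_pullfun c k1 k2 k3 (W := W₁ ∩ W₂) hφT
    (fun u hu => (k4 hu).1.2)
  have hψ : hInt S ρ₁ (fun x => φ (τ x) * |(fderiv ℝ τ x).det|) = hInt S ρ₁ ψ := by
    unfold hInt
    refine setLIntegral_congr_fun (measurableSet_zero c.openS h₁.continuousOn) fun x hx => ?_
    simp only [p5 x hx.1]
  rw [hψ]
  have hint : ∀ ε : ℝ, ∫⁻ x, ENNReal.ofReal (ε⁻¹ * chi' (-ρ₁ x / ε) * ψ x) =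
      ∫⁻ u, ENNReal.ofReal (ε⁻¹ * chi' (-ρ₂ u / ε) * φ u) := fun ε =>
    chg_integral c hρ hφT p5 p6 ε
  have A := a4 ψ p1 p2 p3 (p4.trans inter_subset_left)
  have B := b4 ψ p1 p2 p3 (p4.trans inter_subset_right)
  have C := c4 φ k1 k2 k3 (fun x hx => (k4 hx).2.1)
  have D := d4 φ k1 k2 k3 (fun x hx => (k4 hx).2.2)
  have key : ∀ {X Y : ℝ≥0∞} {I : ℝ → ℝ≥0∞},
      (∀ η > 0, ∀ᶠ ε in 𝓝[>] (0 : ℝ), X ≤ ENNReal.ofReal ((1 + δ) ^ finrank ℝ V) * I ε +
        ENNReal.ofReal η) →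
      (∀ η > 0, ∀ᶠ ε in 𝓝[>] (0 : ℝ), I ε ≤ ENNReal.ofReal (1 + δ) * Y + ENNReal.ofReal η) →
      X ≤ ENNReal.ofReal ((1 + δ) ^ (finrank ℝ V + 1)) * Y := by
    intro X Y I e1 e2
    have e3 : ∀ η : ℝ, 0 < η → X ≤ ENNReal.ofReal ((1 + δ) ^ (finrank ℝ V + 1)) * Y +
        ENNReal.ofReal ((1 + δ) ^ finrank ℝ V * η + η) := by
      intro η hη
      obtain ⟨ε, f1, f2⟩ := ((e1 η hη).and (e2 η hη)).exists
      calc X ≤ ENNReal.ofReal ((1 + δ) ^ finrank ℝ V) * I ε + ENNReal.ofReal η := f1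
        _ ≤ ENNReal.ofReal ((1 + δ) ^ finrank ℝ V) * (ENNReal.ofReal (1 + δ) * Y +
            ENNReal.ofReal η) + ENNReal.ofReal η := by gcongr
        _ = ENNReal.ofReal ((1 + δ) ^ (finrank ℝ V + 1)) * Y +
            ENNReal.ofReal ((1 + δ) ^ finrank ℝ V * η + η) := by
          rw [mul_add, ← mul_assoc, ← ENNReal.ofReal_mul (by positivity),
            ← ENNReal.ofReal_mul (by positivity), ← pow_succ, add_assoc,
            ← ENNReal.ofReal_add (by positivity) (by positivity)]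
    have e4 : Tendsto (fun η : ℝ => ENNReal.ofReal ((1 + δ) ^ (finrank ℝ V + 1)) * Y +
        ENNReal.ofReal ((1 + δ) ^ finrank ℝ V * η + η)) (𝓝[>] 0)
        (𝓝 (ENNReal.ofReal ((1 + δ) ^ (finrank ℝ V + 1)) * Y + ENNReal.ofReal 0)) := by
      refine Tendsto.add tendsto_const_nhds ?_
      apply (ENNReal.continuous_ofReal.tendsto 0).comp
      have hc : Continuous fun η : ℝ => (1 + δ) ^ finrank ℝ V * η + η := by fun_prop
      have := hc.tendsto 0
      simp only [mul_zero, add_zero] at this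
      exact this.mono_left nhdsWithin_le_nhds
    rw [ENNReal.ofReal_zero, add_zero] at e4
    exact ge_of_tendsto e4 (by filter_upwards [self_mem_nhdsWithin] with η hη using e3 η hη)
  refine ⟨?_, ?_, ?_⟩
  · obtain ⟨ε, f1, f2⟩ := ((C 1 one_pos).and self_mem_nhdsWithin).exists
    refine ne_top_of_le_ne_top ?_ f1
    refine ENNReal.add_ne_top.2 ⟨ENNReal.mul_ne_top ENNReal.ofReal_ne_top ?_,
      ENNReal.ofReal_ne_top⟩
    exact vol_finite k1 k2 k3 f2
  · refine key (I := fun ε => ∫⁻ u, ENNReal.ofReal (ε⁻¹ * chi' (-ρ₂ u / ε) * φ u))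
      (fun η hη => ?_) D
    filter_upwards [A η hη] with ε hε
    rw [hint ε] at hε
    exact hε
  · refine key (I := fun ε => ∫⁻ u, ENNReal.ofReal (ε⁻¹ * chi' (-ρ₂ u / ε) * φ u)) C
      (fun η hη => ?_)
    filter_upwards [B η hη] with ε hε
    rw [hint ε] at hε
    exact hε

end Vale.Agent.P219.H381
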