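import Vale.Agent.P219.H381.Hyp

/-!
# P219: change of variables for the Euclidean measure of hypersurfaces, 2
-/

open MeasureTheory Set Filter Topology Module
open scoped ENNReal NNReal ContDiff

set_option linter.all false

noncomputable section

namespace Vale.Agent.P219.H381

open Vale.Agent.P219.Coarea

variable {V : Type} [NormedAddCommGroup V] [InnerProductSpace ℝ V] [FiniteDimensional ℝ V]
  [MeasurableSpace V] [BorelSpace V]

theorem aem_fderiv {U A : Set V} (hU : IsOpen U) {f : V → ℝ} (hf : ContDiffOn ℝ ∞ f U)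
    (hAU : A ⊆ U) (μ : Measure V) : AEMeasurable (fun x => ‖fderiv ℝ f x‖) (μ.restrict A) := by
  have h1 : ContinuousOn (fun x => ‖fderiv ℝ f x‖) U := fun x hx =>
    (((hf.contDiffAt (hU.mem_nhds hx)).fderiv_right (m := ∞)
      (by simp)).continuousAt.norm).continuousWithinAt
  exact (h1.aemeasurable hU.measurableSet).mono_measure (Measure.restrict_mono hAU le_rfl)

theorem aem_det {S : Set V} {A : Set V} (hS : IsOpen S) {τ : V → V} (hτ : ContDiffOn ℝ ∞ τ S)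
    (hAS : A ⊆ S) (μ : Measure V) :
    AEMeasurable (fun x => |(fderiv ℝ τ x).det|) (μ.restrict A) := by
  have h1 : ContinuousOn (fun x => |(fderiv ℝ τ x).det|) S := fun x hx => by
    have h2 : ContinuousAt (fderiv ℝ τ) x :=
      ((hτ.contDiffAt (hS.mem_nhds hx)).fderiv_right (m := ∞) (by simp)).continuousAt
    exact (ContinuousLinearMap.continuous_det.continuousAt.comp h2).abs.continuousWithinAt
  exact (h1.aemeasurable hS.measurableSet).mono_measure (Measure.restrict_mono hAS le_rfl)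

/-- the weighted measure of a hypersurface -/
def hMeas (U : Set V) (f : V → ℝ) (w : V → ℝ) : Measure V :=
  ((μHE[finrank ℝ V - 1] : Measure V).restrict (U ∩ {x | f x = 0})).withDensity
    fun x => ENNReal.ofReal (w x / ‖fderiv ℝ f x‖)

theorem lintegral_hMeas {U : Set V} (hU : IsOpen U) {f w : V → ℝ} (hf : ContDiffOn ℝ ∞ f U)
    (hw : AEMeasurable w ((μHE[finrank ℝ V - 1] : Measure V).restrict (U ∩ {x | f x = 0})))
    {F : V → ℝ≥0∞}
    (hF : AEMeasurable F ((μHE[finrank ℝ V - 1] : Measure V).restrict (U ∩ {x | f x = 0}))) :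
    ∫⁻ x, F x ∂(hMeas U f w) = ∫⁻ x in U ∩ {x | f x = 0},
      ENNReal.ofReal (w x / ‖fderiv ℝ f x‖) * F x ∂(μHE[finrank ℝ V - 1] : Measure V) := by
  unfold hMeas
  have hd : AEMeasurable (fun x => ENNReal.ofReal (w x / ‖fderiv ℝ f x‖))
      ((μHE[finrank ℝ V - 1] : Measure V).restrict (U ∩ {x | f x = 0})) :=
    (hw.div (aem_fderiv hU hf inter_subset_left _)).ennreal_ofReal
  rw [lintegral_withDensity_eq_lintegral_mul₀ hd hF]
  rfl

theorem lintegral_hMeas_one {U : Set V} (hU : IsOpen U) {f φ : V → ℝ} (hf : ContDiffOn ℝ ∞ f U)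
    (hφ : Continuous φ) (h0 : ∀ x, 0 ≤ φ x) :
    ∫⁻ x, ENNReal.ofReal (φ x) ∂(hMeas U f fun _ => 1) = hInt U f φ := by
  rw [lintegral_hMeas hU hf aemeasurable_const hφ.measurable.ennreal_ofReal.aemeasurable]
  unfold hInt
  congr 1
  funext x
  rw [← ENNReal.ofReal_mul (by positivity)]
  congr 1
  ring

theorem aem_map {S T : Set V} {τ σ : V → V} (c : Chg S T τ σ) (ρ₁ w : V → ℝ) :
    AEMeasurable τ (hMeas S ρ₁ w) := by
  have h1 : AEMeasurable τ ((μHE[finrank ℝ V - 1] : Measure V).restrict (S ∩ {x | ρ₁ x = 0})) :=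
    (c.smS.continuousOn.aemeasurable c.openS.measurableSet).mono_measure
      (Measure.restrict_mono inter_subset_left le_rfl)
  exact h1.mono_ac (withDensity_absolutelyContinuous _ _)

theorem lintegral_map_hMeas {S T : Set V} {τ σ : V → V} (c : Chg S T τ σ) {ρ₁ : V → ℝ}
    (h₁ : ContDiffOn ℝ ∞ ρ₁ S) {F : V → ℝ≥0∞} (hF : Measurable F) :
    ∫⁻ u, F u ∂((hMeas S ρ₁ fun x => |(fderiv ℝ τ x).det|).map τ) =
      ∫⁻ x in S ∩ {x | ρ₁ x = 0}, ENNReal.ofReal (|(fderiv ℝ τ x).det| / ‖fderiv ℝ ρ₁ x‖) *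
        F (τ x) ∂(μHE[finrank ℝ V - 1] : Measure V) := by
  rw [lintegral_map' hF.aemeasurable (aem_map c _ _)]
  refine lintegral_hMeas c.openS h₁ (aem_det c.openS c.smS inter_subset_left _) ?_
  exact hF.comp_aemeasurable ((c.smS.continuousOn.aemeasurable c.openS.measurableSet).mono_measure
      (Measure.restrict_mono inter_subset_left le_rfl))

theorem lintegral_map_test {S T : Set V} {τ σ : V → V} (c : Chg S T τ σ) {ρ₁ φ : V → ℝ}
    (h₁ : ContDiffOn ℝ ∞ ρ₁ S) (hφ : Continuous φ) (h0 : ∀ x, 0 ≤ φ x) :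
    ∫⁻ u, ENNReal.ofReal (φ u) ∂((hMeas S ρ₁ fun x => |(fderiv ℝ τ x).det|).map τ) =
      hInt S ρ₁ (fun x => φ (τ x) * |(fderiv ℝ τ x).det|) := by
  rw [lintegral_map_hMeas c h₁ hφ.measurable.ennreal_ofReal]
  unfold hInt
  congr 1
  funext x
  rw [← ENNReal.ofReal_mul (by positivity)]
  congr 1
  ring

/-- the local comparison of the two measures -/
theorem chg_nbhd {S T : Set V} {τ σ : V → V} (c : Chg S T τ σ) {ρ₁ ρ₂ : V → ℝ}
    (h₁ : ContDiffOn ℝ ∞ ρ₁ S) (h₂ : ContDiffOn ℝ ∞ ρ₂ T) (hρ : ∀ x ∈ S, ρ₂ (τ x) = ρ₁ x)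
    (hd₂ : ∀ u ∈ T, ρ₂ u = 0 → fderiv ℝ ρ₂ u ≠ 0) (hd₁ : ∀ x ∈ S, ρ₁ x = 0 → fderiv ℝ ρ₁ x ≠ 0)
    (δ : ℝ) (hδ : 0 < δ) (q : V) (hq : q ∈ T) :
    ∃ N : Set V, IsOpen N ∧ q ∈ N ∧ hMeas T ρ₂ (fun _ => 1) N ≠ ⊤ ∧
      (hMeas S ρ₁ fun x => |(fderiv ℝ τ x).det|).map τ N ≠ ⊤ ∧
      ∀ φ : V → ℝ, Continuous φ → (∀ x, 0 ≤ φ x) → HasCompactSupport φ → tsupport φ ⊆ N →
      ∫⁻ x, ENNReal.ofReal (φ x) ∂((hMeas S ρ₁ fun x => |(fderiv ℝ τ x).det|).map τ) ≤
        ENNReal.ofReal ((1 + δ) ^ (finrank ℝ V + 1)) *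
          ∫⁻ x, ENNReal.ofReal (φ x) ∂(hMeas T ρ₂ fun _ => 1) ∧
      ∫⁻ x, ENNReal.ofReal (φ x) ∂(hMeas T ρ₂ fun _ => 1) ≤
        ENNReal.ofReal ((1 + δ) ^ (finrank ℝ V + 1)) * ∫⁻ x, ENNReal.ofReal (φ x)
          ∂((hMeas S ρ₁ fun x => |(fderiv ℝ τ x).det|).map τ) := by
  set m₁ := (hMeas S ρ₁ fun x => |(fderiv ℝ τ x).det|).map τ with hm₁
  set m₂ := hMeas T ρ₂ (fun _ => 1) with hm₂
  by_cases hq0 : ρ₂ q = 0
  · obtain ⟨N, hN, hqN, hNT, H⟩ := chg_local c h₁ h₂ hρ hq hq0 (hd₂ q hq hq0)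
      (hd₁ _ (c.mapT q hq) (by rw [← hρ _ (c.mapT q hq), c.right q hq, hq0])) δ hδ
    obtain ⟨r, hr, hrN⟩ := Metric.isOpen_iff.1 hN q hqN
    have hcb : Metric.closedBall q (r / 2) ⊆ N :=
      (Metric.closedBall_subset_ball (by linarith)).trans hrN
    obtain ⟨f, hf1, hf2, hf3, hf4⟩ := exists_continuousMap_one_of_isCompact_subset_isOpen
      (isCompact_closedBall q (r / 2)) hN hcb
    obtain ⟨G1, G2, G3⟩ := H f f.continuous (fun x => (hf4 x).1) hf2 hf3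
    have hle : ∀ m : Measure V, m (Metric.ball q (r / 2)) ≤ ∫⁻ x, ENNReal.ofReal (f x) ∂m := by
      intro m
      rw [← lintegral_indicator_one Metric.isOpen_ball.measurableSet]
      refine lintegral_mono fun x => ?_
      by_cases hx : x ∈ Metric.ball q (r / 2)
      · rw [indicator_of_mem hx]
        have := hf1 (Metric.ball_subset_closedBall hx)
        simp only [Pi.one_apply] at this ⊢
        rw [this]; simp
      · rw [indicator_of_notMem hx]; exact bot_le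
    refine ⟨Metric.ball q (r / 2), Metric.isOpen_ball, Metric.mem_ball_self (by positivity),
      ?_, ?_, ?_⟩
    · refine ne_top_of_le_ne_top ?_ (hle m₂)
      rw [hm₂, lintegral_hMeas_one c.openT h₂ f.continuous (fun x => (hf4 x).1)]
      exact G1
    · refine ne_top_of_le_ne_top ?_ (hle m₁)
      rw [hm₁, lintegral_map_test c h₁ f.continuous (fun x => (hf4 x).1)]
      exact ne_top_of_le_ne_top (ENNReal.mul_ne_top ENNReal.ofReal_ne_top G1) G2
    · intro φ k1 k2 k3 k4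
      obtain ⟨_, G5, G6⟩ := H φ k1 k2 k3 (k4.trans (Metric.ball_subset_closedBall.trans hcb))
      rw [hm₁, hm₂, lintegral_map_test c h₁ k1 k2, lintegral_hMeas_one c.openT h₂ k1 k2]
      exact ⟨G5, G6⟩
  · set N : Set V := T ∩ ρ₂ ⁻¹' {0}ᶜ with hN
    have hNo : IsOpen N := h₂.continuousOn.isOpen_inter_preimage c.openT isOpen_compl_singleton
    have z2 : m₂ N = 0 := by
      rw [hm₂, hMeas, withDensity_apply _ hNo.measurableSet,
        Measure.restrict_restrict hNo.measurableSet]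
      have : N ∩ (T ∩ {x | ρ₂ x = 0}) = ∅ := by
        ext x
        simp only [hN, mem_inter_iff, mem_preimage, mem_compl_iff, mem_singleton_iff,
          mem_ofPred_eq, mem_empty_iff_false, iff_false, not_and]
        intro h _; exact h.2
      rw [this]; simp
    have z1 : m₁ N = 0 := by
      rw [hm₁, Measure.map_apply_of_aemeasurable (aem_map c _ _) hNo.measurableSet, hMeas]
      have h3 : ((μHE[finrank ℝ V - 1] : Measure V).restrict (S ∩ {x | ρ₁ x = 0}))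
          (τ ⁻¹' N) = 0 := by
        have hms : MeasurableSet (S ∩ {x | ρ₁ x = 0}) :=
          measurableSet_zero c.openS h₁.continuousOn
        rw [Measure.restrict_apply' hms]
        have : τ ⁻¹' N ∩ (S ∩ {x | ρ₁ x = 0}) = ∅ := by
          ext x
          simp only [hN, mem_inter_iff, mem_preimage, mem_compl_iff, mem_singleton_iff,
            mem_ofPred_eq, mem_empty_iff_false, iff_false, not_and]
          intro h hx hx0
          exact h.2 ((hρ x hx).trans hx0)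
        rw [this]; simp
      exact withDensity_absolutelyContinuous _ _ h3
    refine ⟨N, hNo, ⟨hq, hq0⟩, by rw [z2]; simp, by rw [z1]; simp, ?_⟩
    intro φ k1 k2 k3 k4
    have hz : ∀ m : Measure V, m N = 0 → ∫⁻ x, ENNReal.ofReal (φ x) ∂m = 0 := by
      intro m hm
      rw [lintegral_eq_zero_iff k1.measurable.ennreal_ofReal]
      have : ∀ᵐ x ∂m, x ∉ N := by
        rw [ae_iff]; simpa using hm
      filter_upwards [this] with x hx
      have : φ x = 0 := by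
        by_contra h
        exact hx (k4 (subset_tsupport _ h))
      simp [this]
    rw [hz m₁ z1, hz m₂ z2]
    simp

/-- the two measures agree -/
theorem chg_measure {S T : Set V} {τ σ : V → V} (c : Chg S T τ σ) {ρ₁ ρ₂ : V → ℝ}
    (h₁ : ContDiffOn ℝ ∞ ρ₁ S) (h₂ : ContDiffOn ℝ ∞ ρ₂ T) (hρ : ∀ x ∈ S, ρ₂ (τ x) = ρ₁ x)
    (hd₂ : ∀ u ∈ T, ρ₂ u = 0 → fderiv ℝ ρ₂ u ≠ 0) (hd₁ : ∀ x ∈ S, ρ₁ x = 0 → fderiv ℝ ρ₁ x ≠ 0)
    {B : Set V} (hB : MeasurableSet B) (hBT : B ⊆ T) :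
    (hMeas S ρ₁ fun x => |(fderiv ℝ τ x).det|).map τ B = hMeas T ρ₂ (fun _ => 1) B := by
  have H := chg_nbhd c h₁ h₂ hρ hd₂ hd₁
  have key : ∀ X Y : ℝ≥0∞, (∀ δ : ℝ, 0 < δ →
      X ≤ ENNReal.ofReal ((1 + δ) ^ (finrank ℝ V + 1)) * Y) → X ≤ Y := by
    intro X Y h
    have e : Tendsto (fun δ : ℝ => ENNReal.ofReal ((1 + δ) ^ (finrank ℝ V + 1)) * Y) (𝓝[>] 0)
        (𝓝 (1 * Y)) := by
      refine ENNReal.Tendsto.mul_const ?_ (Or.inl one_ne_zero)
      have hc : Continuous fun δ : ℝ => ENNReal.ofReal ((1 + δ) ^ (finrank ℝ V + 1)) :=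
        ENNReal.continuous_ofReal.comp (by fun_prop)
      have := hc.tendsto 0
      simp only [add_zero, one_pow, ENNReal.ofReal_one] at this
      exact this.mono_left nhdsWithin_le_nhds
    rw [one_mul] at e
    exact ge_of_tendsto e (by filter_upwards [self_mem_nhdsWithin] with δ hδ using h δ hδ)
  apply le_antisymm
  · refine key _ _ fun δ hδ => meas_le ENNReal.ofReal_ne_top (T := T) (fun q hq => ?_) hB hBT
    obtain ⟨N, a, b, c', d, e⟩ := H δ hδ q hq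
    exact ⟨N, a, b, c', fun φ k1 k2 k3 k4 => (e φ k1 k2 k3 k4).1⟩
  · refine key _ _ fun δ hδ => meas_le ENNReal.ofReal_ne_top (T := T) (fun q hq => ?_) hB hBT
    obtain ⟨N, a, b, c', d, e⟩ := H δ hδ q hq
    exact ⟨N, a, b, d, fun φ k1 k2 k3 k4 => (e φ k1 k2 k3 k4).2⟩

/-- change of variables for hypersurface integrals -/
theorem chg_hyper {S T : Set V} {τ σ : V → V} (c : Chg S T τ σ) {ρ₁ ρ₂ : V → ℝ}
    (h₁ : ContDiffOn ℝ ∞ ρ₁ S) (h₂ : ContDiffOn ℝ ∞ ρ₂ T) (hρ : ∀ x ∈ S, ρ₂ (τ x) = ρ₁ x)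
    (hd₂ : ∀ u ∈ T, ρ₂ u = 0 → fderiv ℝ ρ₂ u ≠ 0) (hd₁ : ∀ x ∈ S, ρ₁ x = 0 → fderiv ℝ ρ₁ x ≠ 0)
    {F : V → ℝ≥0∞} (hF : Measurable F) (hFT : ∀ u, u ∉ T → F u = 0) :
    ∫⁻ x in S ∩ {x | ρ₁ x = 0}, ENNReal.ofReal (|(fderiv ℝ τ x).det| / ‖fderiv ℝ ρ₁ x‖) *
        F (τ x) ∂(μHE[finrank ℝ V - 1] : Measure V) =
      ∫⁻ u in T ∩ {u | ρ₂ u = 0}, ENNReal.ofReal (1 / ‖fderiv ℝ ρ₂ u‖) * F u
        ∂(μHE[finrank ℝ V - 1] : Measure V) := by
  rw [← lintegral_map_hMeas c h₁ hF,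
    ← lintegral_hMeas c.openT h₂ aemeasurable_const hF.aemeasurable]
  have e1 : ∀ m : Measure V, ∫⁻ u, F u ∂m = ∫⁻ u in T, F u ∂m := by
    intro m
    rw [← lintegral_indicator c.openT.measurableSet]
    congr 1
    funext u
    by_cases hu : u ∈ T
    · rw [indicator_of_mem hu]
    · rw [indicator_of_notMem hu, hFT u hu]
  rw [e1, e1 (hMeas T ρ₂ fun _ => 1)]
  have e2 : ((hMeas S ρ₁ fun x => |(fderiv ℝ τ x).det|).map τ).restrict T =
      (hMeas T ρ₂ fun _ => 1).restrict T := by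
    ext B hB
    rw [Measure.restrict_apply hB, Measure.restrict_apply hB]
    exact chg_measure c h₁ h₂ hρ hd₂ hd₁ (hB.inter c.openT.measurableSet) inter_subset_right
  rw [e2]

end Vale.Agent.P219.H381
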